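import Mathlib
open MeasureTheory Set Filter

namespace Vale.Agent.Lib.P028

/-- number of integers in an open real interval of radius `ρ` -/
lemma card_int_near (c ρ : ℝ) (hρ : 0 ≤ ρ) :
    ((Finset.Ioo ⌊c - ρ⌋ ⌈c + ρ⌉).card : ℝ) ≤ 2 * ρ + 1 := by
  rw [Int.card_Ioo]
  have h1 : (⌈c + ρ⌉ : ℝ) < c + ρ + 1 := Int.ceil_lt_add_one _
  have h2 : c - ρ - 1 < (⌊c - ρ⌋ : ℝ) := Int.sub_one_lt_floor _
  by_cases h : 0 ≤ ⌈c + ρ⌉ - ⌊c - ρ⌋ - 1
  · have : (((⌈c + ρ⌉ - ⌊c - ρ⌋ - 1).toNat : ℤ) : ℝ) = ((⌈c + ρ⌉ - ⌊c - ρ⌋ - 1 : ℤ) : ℝ) := by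
      rw [Int.toNat_of_nonneg h]
    have h3 : (((⌈c + ρ⌉ - ⌊c - ρ⌋ - 1).toNat : ℕ) : ℝ) = ((⌈c + ρ⌉ - ⌊c - ρ⌋ - 1 : ℤ) : ℝ) := by
      rw [← this]; norm_cast
    rw [h3]; push_cast; linarith
  · have : (⌈c + ρ⌉ - ⌊c - ρ⌋ - 1).toNat = 0 := by
      apply Int.toNat_of_nonpos; omega
    rw [this]; simp; linarith

lemma count_le (q r : ℕ) (hr : 0 < r) (hc : Nat.Coprime q r) (s δ : ℝ) (hδ : 0 ≤ δ) :
    (((Finset.range r).filter
      (fun i : ℕ => ‖((s + (q * i : ℝ) / r : ℝ) : UnitAddCircle)‖ < δ)).card : ℝ) ≤ 2 * δ * r + 1 := by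
  have hr' : (0 : ℝ) < r := by exact_mod_cast hr
  set f : ℕ → ℤ := fun i => round (s + (q * i : ℝ) / r) * r - q * i with hf
  have key : ((Finset.range r).filter
      (fun i : ℕ => ‖((s + (q * i : ℝ) / r : ℝ) : UnitAddCircle)‖ < δ)).card ≤
      (Finset.Ioo ⌊r * s - r * δ⌋ ⌈r * s + r * δ⌉).card := by
    apply Finset.card_le_card_of_injOn f
    · intro i hi
      simp only [Finset.coe_filter, Finset.mem_range, Set.mem_ofPred_eq] at hi
      obtain ⟨_, hi⟩ := hi
      rw [UnitAddCircle.norm_eq] at hi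
      rw [abs_lt] at hi
      simp only [Finset.coe_Ioo, Set.mem_Ioo, hf]
      have e : (r : ℝ) * (s + (q * i : ℝ) / r - round (s + (q * i : ℝ) / r)) =
          r * s - ((round (s + (q * i : ℝ) / r) * r - q * i : ℤ) : ℝ) := by
        push_cast; field_simp; ring
      constructor
      · rw [Int.floor_lt]
        have := mul_lt_mul_of_pos_left hi.2 hr'
        rw [e] at this; linarith
      · rw [Int.lt_ceil]
        have := mul_lt_mul_of_pos_left hi.1 hr'
        rw [e] at this; linarith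
    · intro i hi j hj hij
      simp only [Finset.coe_filter, Finset.mem_range, Set.mem_ofPred_eq] at hi hj
      simp only [hf] at hij
      have h1 : (r : ℤ) ∣ (q : ℤ) * ((i : ℤ) - j) := by
        refine ⟨round (s + (q * i : ℝ) / r) - round (s + (q * j : ℝ) / r), ?_⟩
        linarith
      have h2 : (r : ℤ) ∣ ((i : ℤ) - j) := by
        have hc' : IsCoprime (r : ℤ) (q : ℤ) := by
          exact_mod_cast (Nat.isCoprime_iff_coprime.mpr hc.symm)
        exact hc'.dvd_of_dvd_mul_left h1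
      have h3 : ((i : ℤ) - j) = 0 := by
        apply Int.eq_zero_of_abs_lt_dvd h2
        rw [abs_lt]; constructor <;> omega
      omega
  calc (((Finset.range r).filter
      (fun i : ℕ => ‖((s + (q * i : ℝ) / r : ℝ) : UnitAddCircle)‖ < δ)).card : ℝ)
      ≤ ((Finset.Ioo ⌊r * s - r * δ⌋ ⌈r * s + r * δ⌉).card : ℝ) := by exact_mod_cast key
    _ ≤ 2 * (r * δ) + 1 := card_int_near _ _ (by positivity)
    _ = 2 * δ * r + 1 := by ring

/-- the set of `x` on the circle with `‖q x - c‖ < δ` -/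
def arcs (q : ℕ) (c : UnitAddCircle) (δ : ℝ) : Set UnitAddCircle := {x | ‖q • x - c‖ < δ}

lemma arcs_eq_preimage (q : ℕ) (c : UnitAddCircle) (δ : ℝ) :
    arcs q c δ = (fun x : UnitAddCircle => q • x) ⁻¹' Metric.ball c δ := by
  ext x; simp [arcs, dist_eq_norm]

lemma measurableSet_arcs (q : ℕ) (c : UnitAddCircle) (δ : ℝ) : MeasurableSet (arcs q c δ) := by
  rw [arcs_eq_preimage]
  exact (Metric.isOpen_ball.preimage (continuous_nsmul q)).measurableSet

lemma mp_nsmul (n : ℕ) (hn : 0 < n) :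
    MeasurePreserving (fun y : UnitAddCircle => n • y) volume volume := by
  have := MeasureTheory.Measure.measurePreserving_zsmul (volume : Measure UnitAddCircle)
    (n := (n:ℤ)) (by positivity)
  simpa using this

lemma volume_arcs (q : ℕ) (hq : 0 < q) (c : UnitAddCircle) (δ : ℝ) :
    volume (arcs q c δ) = ENNReal.ofReal (min 1 (2 * δ)) := by
  rw [arcs_eq_preimage, (mp_nsmul q hq).measure_preimage Metric.isOpen_ball.measurableSet.nullMeasurableSet,
    ← measure_congr AddCircle.closedBall_ae_eq_ball, AddCircle.volume_closedBall]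

lemma overlap_coprime (q r : ℕ) (hr : 0 < r) (hc : Nat.Coprime q r) (c d : UnitAddCircle)
    (δ η : ℝ) (hδ : 0 ≤ δ) :
    (r : ENNReal) * volume (arcs q c δ ∩ arcs r d η) ≤
      ENNReal.ofReal (2 * δ * r + 1) * volume (arcs r d η) := by
  have hr' : (0 : ℝ) < r := by exact_mod_cast hr
  set u : UnitAddCircle := ((1 / r : ℝ) : UnitAddCircle) with hu
  have hru : r • u = 0 := by
    rw [hu, ← AddCircle.coe_nsmul, nsmul_eq_mul, mul_one_div_cancel hr'.ne']
    exact AddCircle.coe_period 1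
  -- translation invariance
  have h1 : ∀ i : ℕ, volume (arcs q c δ ∩ arcs r d η) =
      volume ((fun x => x + i • u) ⁻¹' (arcs q c δ) ∩ arcs r d η) := by
    intro i
    rw [← measure_preimage_add_right volume (i • u) (arcs q c δ ∩ arcs r d η), preimage_inter]
    congr 2
    ext x
    simp only [arcs, mem_preimage, mem_ofPred_eq, smul_add]
    rw [smul_comm r i u, hru, smul_zero, add_zero]
  have h2 : (r : ENNReal) * volume (arcs q c δ ∩ arcs r d η) =
      ∑ i ∈ Finset.range r, volume ((fun x => x + i • u) ⁻¹' (arcs q c δ) ∩ arcs r d η) := by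
    rw [← Finset.sum_congr rfl (fun i _ => h1 i)]
    simp
  have hm : ∀ i : ℕ, MeasurableSet ((fun x => x + i • u) ⁻¹' (arcs q c δ)) := fun i =>
    (measurable_add_const _) (measurableSet_arcs q c δ)
  have h3 : ∀ i : ℕ, volume ((fun x => x + i • u) ⁻¹' (arcs q c δ) ∩ arcs r d η) =
      ∫⁻ x in arcs r d η, ((fun x => x + i • u) ⁻¹' (arcs q c δ)).indicator 1 x := by
    intro i
    rw [lintegral_indicator_one (hm i), Measure.restrict_apply (hm i)]
  rw [h2, Finset.sum_congr rfl (fun i _ => h3 i), ← lintegral_finsetSum]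
  swap
  · intro i _
    exact measurable_one.indicator (hm i)
  calc ∫⁻ x in arcs r d η, ∑ i ∈ Finset.range r,
        ((fun x => x + i • u) ⁻¹' (arcs q c δ)).indicator 1 x
      ≤ ∫⁻ x in arcs r d η, ENNReal.ofReal (2 * δ * r + 1) := by
        apply lintegral_mono
        intro x
        obtain ⟨s, hs⟩ : ∃ s : ℝ, (s : UnitAddCircle) = q • x - c :=
          QuotientAddGroup.mk_surjective _
        have hcount := count_le q r hr hc s δ hδ
        have e : ∑ i ∈ Finset.range r,
            ((fun x => x + i • u) ⁻¹' (arcs q c δ)).indicator (1 : UnitAddCircle → ENNReal) x =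
            (((Finset.range r).filter
              (fun i : ℕ => ‖((s + (q * i : ℝ) / r : ℝ) : UnitAddCircle)‖ < δ)).card : ENNReal) := by
          rw [Finset.card_filter]
          push_cast
          apply Finset.sum_congr rfl
          intro i _
          have : (x ∈ (fun x => x + i • u) ⁻¹' (arcs q c δ)) ↔
              ‖((s + (q * i : ℝ) / r : ℝ) : UnitAddCircle)‖ < δ := by
            simp only [arcs, mem_preimage, mem_ofPred_eq]
            have : q • (x + i • u) - c = ((s + (q * i : ℝ) / r : ℝ) : UnitAddCircle) := by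
              rw [AddCircle.coe_add, hs, smul_add, hu, ← AddCircle.coe_nsmul, ← AddCircle.coe_nsmul]
              have : (q • i • (1 / r : ℝ)) = (q * i : ℝ) / r := by
                simp only [nsmul_eq_mul]; ring
              rw [this]; abel
            rw [this]
          by_cases h : ‖((s + (q * i : ℝ) / r : ℝ) : UnitAddCircle)‖ < δ
          · rw [Set.indicator_of_mem (this.mpr h), if_pos h]; rfl
          · rw [Set.indicator_of_notMem (fun h' => h (this.mp h')), if_neg h]
        show ∑ i ∈ Finset.range r,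
            ((fun x => x + i • u) ⁻¹' (arcs q c δ)).indicator (1 : UnitAddCircle → ENNReal) x ≤ _
        rw [e]
        rw [← ENNReal.ofReal_natCast]
        exact ENNReal.ofReal_le_ofReal hcount
    _ = ENNReal.ofReal (2 * δ * r + 1) * volume (arcs r d η) := by
        rw [lintegral_const, Measure.restrict_apply MeasurableSet.univ, univ_inter]

lemma arcs_mul (g q : ℕ) (c : UnitAddCircle) (δ : ℝ) :
    arcs (g * q) c δ = (fun x : UnitAddCircle => g • x) ⁻¹' arcs q c δ := by
  ext x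
  simp only [arcs, mem_preimage, mem_ofPred_eq]
  rw [mul_comm g q, mul_smul]

lemma overlap_real (q r : ℕ) (hq : 0 < q) (hr : 0 < r) (c d : UnitAddCircle)
    (δ η : ℝ) (hδ : 0 ≤ δ) :
    volume.real (arcs q c δ ∩ arcs r d η) ≤
      volume.real (arcs r d η) * (2 * δ + (Nat.gcd q r : ℝ) / r) := by
  set g := Nat.gcd q r with hg
  have hgpos : 0 < g := Nat.gcd_pos_of_pos_left r hq
  obtain ⟨q', hq'⟩ : g ∣ q := Nat.gcd_dvd_left q r
  obtain ⟨r', hr'⟩ : g ∣ r := Nat.gcd_dvd_right q r
  have hr'pos : 0 < r' := by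
    rcases Nat.eq_zero_or_pos r' with h | h
    · rw [h] at hr'; omega
    · exact h
  have hcop : Nat.Coprime q' r' := by
    have := Nat.coprime_div_gcd_div_gcd (m := q) (n := r) hgpos
    rw [← hg] at this
    have e1 : q / g = q' := by rw [hq']; exact Nat.mul_div_cancel_left _ hgpos
    have e2 : r / g = r' := by rw [hr']; exact Nat.mul_div_cancel_left _ hgpos
    rwa [e1, e2] at this
  have h1 : volume (arcs q c δ ∩ arcs r d η) = volume (arcs q' c δ ∩ arcs r' d η) := by
    conv_lhs => rw [hq', hr', arcs_mul, arcs_mul, ← preimage_inter]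
    exact (mp_nsmul g hgpos).measure_preimage
      ((measurableSet_arcs _ _ _).inter (measurableSet_arcs _ _ _)).nullMeasurableSet
  have h2 : volume (arcs r d η) = volume (arcs r' d η) := by
    rw [volume_arcs r hr, volume_arcs r' hr'pos]
  have h3 := overlap_coprime q' r' hr'pos hcop c d δ η hδ
  have h4 : (r' : ℝ) * volume.real (arcs q' c δ ∩ arcs r' d η) ≤
      (2 * δ * r' + 1) * volume.real (arcs r' d η) := by
    have := ENNReal.toReal_mono (by finiteness) h3
    rw [ENNReal.toReal_mul, ENNReal.toReal_mul, ENNReal.toReal_natCast,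
      ENNReal.toReal_ofReal (by positivity)] at this
    exact this
  have hr'R : (0 : ℝ) < r' := by exact_mod_cast hr'pos
  have hgR : (0 : ℝ) < g := by exact_mod_cast hgpos
  have e3 : (g : ℝ) / r = 1 / r' := by
    rw [hr']; push_cast; field_simp
  rw [measureReal_def, measureReal_def, h1, h2, ← measureReal_def, ← measureReal_def, e3]
  have : volume.real (arcs r' d η) * (2 * δ + 1 / r') =
      ((2 * δ * r' + 1) * volume.real (arcs r' d η)) / r' := by
    field_simp
  rw [this, le_div_iff₀ hr'R]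
  linarith

lemma fourier_add_pt (k : ℤ) (x y : UnitAddCircle) :
    fourier k (x + y) = fourier k x * fourier k y := by
  rw [fourier_apply, fourier_apply, fourier_apply, smul_add, AddCircle.toCircle_add, Circle.coe_mul]

lemma fourier_ne_one (k : ℤ) (q : ℕ) (hq : 0 < q) (hk : ¬ (q : ℤ) ∣ k) :
    fourier k (((1 / q : ℝ)) : UnitAddCircle) ≠ 1 := by
  rw [fourier_coe_apply]
  intro h
  rw [Complex.exp_eq_one_iff] at h
  obtain ⟨n, hn⟩ := h
  apply hk
  refine ⟨n, ?_⟩
  have hq' : (q : ℂ) ≠ 0 := by exact_mod_cast hq.ne'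
  have hpi : (2 * (Real.pi : ℂ) * Complex.I) ≠ 0 := by
    simp [Real.pi_ne_zero, Complex.I_ne_zero]
  have : (k : ℂ) = q * n := by
    push_cast at hn
    field_simp at hn
    exact hn
  exact_mod_cast this

lemma integral_fourier_arcs (k : ℤ) (q : ℕ) (hq : 0 < q) (hk : ¬ (q : ℤ) ∣ k)
    (c : UnitAddCircle) (δ : ℝ) :
    ∫ x in arcs q c δ, fourier k x ∂(volume : Measure UnitAddCircle) = 0 := by
  have hq' : (0 : ℝ) < q := by exact_mod_cast hq
  set u : UnitAddCircle := ((1 / q : ℝ) : UnitAddCircle) with hu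
  have hqu : q • u = 0 := by
    rw [hu, ← AddCircle.coe_nsmul, nsmul_eq_mul, mul_one_div_cancel hq'.ne']
    exact AddCircle.coe_period 1
  rw [← integral_indicator (measurableSet_arcs q c δ)]
  set f : UnitAddCircle → ℂ := (arcs q c δ).indicator (fun x => fourier k x) with hf
  have h1 : ∫ x, f (x + u) = ∫ x, f x := integral_add_right_eq_self f u
  have h2 : ∀ x, f (x + u) = fourier k u * f x := by
    intro x
    have hmem : x + u ∈ arcs q c δ ↔ x ∈ arcs q c δ := by
      simp only [arcs, mem_ofPred_eq, smul_add, hqu, add_zero]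
    by_cases hx : x ∈ arcs q c δ
    · rw [hf, indicator_of_mem (hmem.mpr hx), indicator_of_mem hx, fourier_add_pt, mul_comm]
    · rw [hf, indicator_of_notMem (fun h => hx (hmem.mp h)), indicator_of_notMem hx, mul_zero]
  simp_rw [h2] at h1
  rw [integral_const_mul] at h1
  have h3 : (fourier k u - 1) * ∫ x, f x = 0 := by
    rw [sub_mul, h1, one_mul, sub_self]
  rcases mul_eq_zero.mp h3 with h | h
  · exact absurd (sub_eq_zero.mp h) (fourier_ne_one k q hq hk)
  · exact h

lemma hilbert_core {H : Type*} [NormedAddCommGroup H] [InnerProductSpace ℂ H]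
    (w : H) (e : ℤ → H) (cf : ℤ → ℂ) (hsum : HasSum (fun i => cf i • e i) w)
    (a : ℕ → H) (m : ℕ → ℝ) (N : ℕ)
    (hwa : ∀ q, N ≤ q → inner ℂ w (a q) = 0)
    (he : ∀ (k : ℤ) (q : ℕ), 0 < q → ¬ (q : ℤ) ∣ k → inner ℂ (e k) (a q) = 0)
    (he0 : ∀ q : ℕ, 0 < q → inner ℂ (e 0) (a q) = (m q : ℂ))
    (K : ℝ)
    (hK : ∀ n0 : ℕ, ∃ F : Finset ℕ, (∀ q ∈ F, n0 ≤ q) ∧ 0 < ∑ q ∈ F, m q ∧
      ‖∑ q ∈ F, a q‖ ≤ K * ∑ q ∈ F, m q) :
    cf 0 = 0 := by
  have key : ∀ ε : ℝ, 0 < ε → ‖cf 0‖ ≤ ε * K := by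
    intro ε hε
    have h1 : ∀ᶠ s : Finset ℤ in atTop, ‖∑ i ∈ s, cf i • e i - w‖ < ε := by
      have := (Metric.tendsto_nhds.mp hsum) ε hε
      simpa [dist_eq_norm] using this
    obtain ⟨s, hs, hs0⟩ := (h1.and (eventually_ge_atTop ({0} : Finset ℤ))).exists
    have h0s : (0 : ℤ) ∈ s := hs0 (Finset.mem_singleton_self 0)
    set n0 : ℕ := max N (s.sup Int.natAbs + 1) with hn0
    obtain ⟨F, hF, hM, hv⟩ := hK n0
    set v := ∑ q ∈ F, a q with hvdef
    set M := ∑ q ∈ F, m q with hMdef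
    have hwv : inner ℂ w v = 0 := by
      rw [hvdef, inner_sum]
      apply Finset.sum_eq_zero
      intro q hq
      exact hwa q (le_trans (le_max_left _ _) (hF q hq))
    have hev : ∀ i ∈ s, i ≠ 0 → inner ℂ (e i) v = 0 := by
      intro i hi hi0
      rw [hvdef, inner_sum]
      apply Finset.sum_eq_zero
      intro q hq
      have hq1 : s.sup Int.natAbs + 1 ≤ q := le_trans (le_max_right _ _) (hF q hq)
      have hq2 : Int.natAbs i ≤ s.sup Int.natAbs := Finset.le_sup (f := Int.natAbs) hi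
      apply he i q (by omega)
      intro hdvd
      apply hi0
      apply Int.eq_zero_of_abs_lt_dvd hdvd
      rw [Int.abs_eq_natAbs]
      exact_mod_cast (by omega : Int.natAbs i < q)
    have he0v : inner ℂ (e 0) v = (M : ℂ) := by
      rw [hvdef, inner_sum, hMdef]
      push_cast
      apply Finset.sum_congr rfl
      intro q hq
      have hq1 : s.sup Int.natAbs + 1 ≤ q := le_trans (le_max_right _ _) (hF q hq)
      exact he0 q (by omega)
    have hpv : inner ℂ (∑ i ∈ s, cf i • e i) v = (starRingEnd ℂ) (cf 0) * (M : ℂ) := by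
      rw [sum_inner, Finset.sum_eq_single_of_mem 0 h0s]
      · rw [inner_smul_left, he0v]
      · intro i hi hi0
        rw [inner_smul_left, hev i hi hi0, mul_zero]
    have h2 : ‖inner ℂ (∑ i ∈ s, cf i • e i - w) v‖ ≤ ε * (K * M) := by
      calc ‖inner ℂ (∑ i ∈ s, cf i • e i - w) v‖ ≤ ‖∑ i ∈ s, cf i • e i - w‖ * ‖v‖ :=
            norm_inner_le_norm _ _
        _ ≤ ε * (K * M) := by
            apply mul_le_mul hs.le hv (norm_nonneg _) hε.le
    rw [inner_sub_left, hpv, hwv, sub_zero, norm_mul, RCLike.norm_conj, Complex.norm_real,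
      Real.norm_of_nonneg hM.le] at h2
    have : ‖cf 0‖ * M ≤ (ε * K) * M := by linarith
    exact le_of_mul_le_mul_right this hM
  have hle : ‖cf 0‖ ≤ 0 := by
    by_contra hpos
    push Not at hpos
    obtain ⟨F, _, hM, hv⟩ := hK 0
    have hKnn : 0 ≤ K := by
      by_contra hneg
      push Not at hneg
      have : K * ∑ q ∈ F, m q < 0 := mul_neg_of_neg_of_pos hneg hM
      linarith [norm_nonneg (∑ q ∈ F, a q)]
    have := key (‖cf 0‖ / (2 * (K + 1))) (by positivity)
    have h3 : ‖cf 0‖ / (2 * (K + 1)) * K ≤ ‖cf 0‖ / 2 := by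
      rw [div_mul_eq_mul_div, div_le_div_iff₀ (by positivity) (by positivity)]
      nlinarith [norm_nonneg (cf 0)]
    linarith
  exact norm_le_zero_iff.mp hle

lemma second_moment (F : Finset ℕ) (T : ℕ → ℕ → ℝ) (m : ℕ → ℝ) (pos : ℕ → Prop)
    [DecidablePred pos] (C : ℝ)
    (hm : ∀ q, 0 ≤ m q) (hsymm : ∀ q r, T q r = T r q) (hdiag : ∀ q ∈ F, T q q ≤ m q)
    (hoff : ∀ q ∈ F, ∀ r ∈ F, q < r → T q r ≤ m r * (m q + (Nat.gcd q r : ℝ) / r))
    (hzero : ∀ q ∈ F, ∀ r, ¬ pos q → T q r ≤ 0)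
    (hzero' : ∀ r ∈ F, ¬ pos r → m r = 0)
    (hF : ∀ q ∈ F, 0 < q)
    (hC : ∀ r ∈ F, pos r → ∑ q ∈ (Finset.Ioo 0 r).filter pos, (Nat.gcd q r : ℝ) ≤ C * r) :
    ∑ q ∈ F, ∑ r ∈ F, T q r ≤
      2 * (∑ q ∈ F, m q) ^ 2 + (2 * C + 1) * ∑ q ∈ F, m q := by
  set M := ∑ q ∈ F, m q with hM
  set U : ℕ → ℕ → ℝ := fun q r => if q < r then T q r else 0 with hU
  have h1 : ∀ q ∈ F, ∀ r ∈ F, T q r ≤ U q r + U r q + (if q = r then m q else 0) := by
    intro q hq r _
    rcases lt_trichotomy q r with h | h | h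
    · simp only [hU, if_pos h, if_neg (not_lt.mpr h.le), if_neg h.ne]; linarith
    · subst h; simp only [hU, lt_irrefl, if_false, if_true]; linarith [hdiag q hq]
    · simp only [hU, if_pos h, if_neg (not_lt.mpr h.le), if_neg h.ne']; linarith [hsymm q r]
  have h2 : ∀ r ∈ F, ∑ q ∈ F, U q r ≤ m r * M + C * m r := by
    intro r hr
    have hrpos : (0 : ℝ) < r := by exact_mod_cast hF r hr
    by_cases hpr : pos r
    · have hb : ∀ q ∈ F, U q r ≤ m r * m q +
          (m r / r) * (if (q < r ∧ pos q) then (Nat.gcd q r : ℝ) else 0) := by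
        intro q hq
        by_cases hqr : q < r
        · by_cases hpq : pos q
          · simp only [hU, if_pos hqr, if_pos (And.intro hqr hpq)]
            have := hoff q hq r hr hqr
            calc T q r ≤ m r * (m q + (Nat.gcd q r : ℝ) / r) := this
              _ = m r * m q + m r / r * (Nat.gcd q r : ℝ) := by field_simp
          · simp only [hU, if_pos hqr, if_neg (fun h : q < r ∧ pos q => hpq h.2), mul_zero, add_zero]
            exact le_trans (hzero q hq r hpq) (mul_nonneg (hm r) (hm q))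
        · simp only [hU, if_neg hqr, if_neg (fun h : q < r ∧ pos q => hqr h.1), mul_zero, add_zero]
          exact mul_nonneg (hm r) (hm q)
      have hs : ∑ q ∈ F, (if (q < r ∧ pos q) then (Nat.gcd q r : ℝ) else 0) ≤ C * r := by
        rw [← Finset.sum_filter]
        refine le_trans ?_ (hC r hr hpr)
        apply Finset.sum_le_sum_of_subset_of_nonneg
        · intro q hq
          simp only [Finset.mem_filter, Finset.mem_Ioo] at hq ⊢
          exact ⟨⟨hF q hq.1, hq.2.1⟩, hq.2.2⟩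
        · intro _ _ _; positivity
      calc ∑ q ∈ F, U q r ≤ ∑ q ∈ F, (m r * m q +
            (m r / r) * (if (q < r ∧ pos q) then (Nat.gcd q r : ℝ) else 0)) := Finset.sum_le_sum hb
        _ = m r * M + (m r / r) * ∑ q ∈ F, (if (q < r ∧ pos q) then (Nat.gcd q r : ℝ) else 0) := by
            rw [Finset.sum_add_distrib, ← Finset.mul_sum, ← Finset.mul_sum]
        _ ≤ m r * M + (m r / r) * (C * r) := by
            gcongr
            exact div_nonneg (hm r) hrpos.le
        _ = m r * M + C * m r := by field_simp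
    · have hmr : m r = 0 := hzero' r hr hpr
      rw [hmr]; simp only [zero_mul, mul_zero, add_zero]
      apply Finset.sum_nonpos
      intro q _
      by_cases hqr : q < r
      · simp only [hU, if_pos hqr]; rw [hsymm]; exact hzero r hr q hpr
      · simp only [hU, if_neg hqr]; exact le_refl _
  have h3 : ∑ r ∈ F, ∑ q ∈ F, U q r ≤ M ^ 2 + C * M := by
    calc ∑ r ∈ F, ∑ q ∈ F, U q r ≤ ∑ r ∈ F, (m r * M + C * m r) := Finset.sum_le_sum h2
      _ = M ^ 2 + C * M := by
          rw [Finset.sum_add_distrib, ← Finset.sum_mul, ← Finset.mul_sum]; ring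
  calc ∑ q ∈ F, ∑ r ∈ F, T q r
      ≤ ∑ q ∈ F, ∑ r ∈ F, (U q r + U r q + (if q = r then m q else 0)) :=
        Finset.sum_le_sum (fun q hq => Finset.sum_le_sum (fun r hr => h1 q hq r hr))
    _ = ∑ q ∈ F, ∑ r ∈ F, U q r + ∑ q ∈ F, ∑ r ∈ F, U r q + M := by
        simp only [Finset.sum_add_distrib]
        congr 1
        apply Finset.sum_congr rfl
        intro q hq
        rw [Finset.sum_ite_eq, if_pos hq]
    _ = 2 * (∑ r ∈ F, ∑ q ∈ F, U q r) + M := by
        rw [Finset.sum_comm (f := fun q r => U q r)]; ring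
    _ ≤ 2 * M ^ 2 + (2 * C + 1) * M := by nlinarith [h3]

lemma hvol : (volume : Measure UnitAddCircle) = AddCircle.haarAddCircle := by
  rw [AddCircle.volume_eq_smul_haarAddCircle]; simp

lemma arcs_empty (q : ℕ) (c : UnitAddCircle) : arcs q c 0 = ∅ := by
  ext x; simp [arcs]

lemma real_arcs (q : ℕ) (hq : 0 < q) (c : UnitAddCircle) (δ : ℝ) (h0 : 0 ≤ δ) (h1 : δ ≤ 1 / 2) :
    volume.real (arcs q c δ) = 2 * δ := by
  rw [measureReal_def, volume_arcs q hq, ENNReal.toReal_ofReal (by positivity),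
    min_eq_right (by linarith)]

theorem circle_tail_null (ψ : ℕ → ℝ) (c : ℕ → UnitAddCircle) (h0 : ∀ q, 0 ≤ ψ q)
    (hhalf : ∀ q, ψ q ≤ 1 / 2)
    (hH : ∀ n0 : ℕ, ∃ (F : Finset ℕ) (C : ℝ), (∀ q ∈ F, n0 < q) ∧ 1 ≤ C ∧ C ≤ ∑ q ∈ F, ψ q ∧
      ∀ r ∈ F, 0 < ψ r →
        ∑ q ∈ (Finset.Ioo 0 r).filter (fun q => 0 < ψ q), (Nat.gcd q r : ℝ) ≤ C * r)
    (N : ℕ) :
    volume (⋃ q ∈ Set.Ici N, arcs q (c q) (ψ q))ᶜ = 0 := by
  classical
  set G : Set UnitAddCircle := (⋃ q ∈ Set.Ici N, arcs q (c q) (ψ q))ᶜ with hGdef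
  have hG : MeasurableSet G :=
    (MeasurableSet.biUnion (Set.to_countable _) (fun q _ => measurableSet_arcs _ _ _)).compl
  have hA : ∀ q, MeasurableSet (arcs q (c q) (ψ q)) := fun q => measurableSet_arcs _ _ _
  rw [hvol]
  set μ : Measure UnitAddCircle := AddCircle.haarAddCircle with hμ
  set w : Lp ℂ 2 μ := indicatorConstLp 2 hG (measure_ne_top μ G) (1 : ℂ) with hw
  set a : ℕ → Lp ℂ 2 μ := fun q => indicatorConstLp 2 (hA q) (measure_ne_top μ _) (1 : ℂ) with ha
  set m : ℕ → ℝ := fun q => μ.real (arcs q (c q) (ψ q)) with hm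
  have hmq : ∀ q, 0 < q → m q = 2 * ψ q := by
    intro q hq
    rw [hm, hμ, ← hvol]
    exact real_arcs q hq _ _ (h0 q) (hhalf q)
  have hcore : fourierCoeff (w : UnitAddCircle → ℂ) 0 = 0 := by
    apply hilbert_core w (fourierLp 2) (fourierCoeff (w : UnitAddCircle → ℂ))
      (hasSum_fourier_series_L2 w) a m N ?_ ?_ ?_ 2 ?_
    · intro q hq
      rw [hw, ha, L2.inner_indicatorConstLp_one_indicatorConstLp_one]
      have : G ∩ arcs q (c q) (ψ q) = ∅ := by
        rw [Set.eq_empty_iff_forall_notMem]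
        rintro x ⟨hx1, hx2⟩
        apply hx1
        exact Set.mem_biUnion (Set.mem_Ici.mpr hq) hx2
      rw [this]; simp
    · intro k q hq hk
      rw [← inner_conj_symm, ha, L2.inner_indicatorConstLp_one]
      have : ∫ x in arcs q (c q) (ψ q), (fourierLp 2 k : Lp ℂ 2 μ) x ∂μ =
          ∫ x in arcs q (c q) (ψ q), fourier k x ∂μ :=
        integral_congr_ae (ae_restrict_of_ae (coeFn_fourierLp 2 k))
      rw [this, hμ, ← hvol, integral_fourier_arcs k q hq hk]; simp
    · intro q hq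
      rw [← inner_conj_symm, ha, L2.inner_indicatorConstLp_one]
      have : ∫ x in arcs q (c q) (ψ q), (fourierLp 2 0 : Lp ℂ 2 μ) x ∂μ =
          ∫ x in arcs q (c q) (ψ q), fourier 0 x ∂μ :=
        integral_congr_ae (ae_restrict_of_ae (coeFn_fourierLp 2 0))
      rw [this]
      simp only [fourier_zero]
      rw [setIntegral_const]
      simp [hm]
    · intro n0
      obtain ⟨F, C, hFn, hC1, hCsum, hCg⟩ := hH n0
      have hFpos : ∀ q ∈ F, 0 < q := fun q hq => lt_of_le_of_lt (Nat.zero_le _) (hFn q hq)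
      have hMeq : ∑ q ∈ F, m q = 2 * ∑ q ∈ F, ψ q := by
        rw [Finset.mul_sum]
        exact Finset.sum_congr rfl (fun q hq => hmq q (hFpos q hq))
      have hM1 : 2 * C ≤ ∑ q ∈ F, m q := by rw [hMeq]; linarith
      refine ⟨F, fun q hq => (hFn q hq).le, by linarith, ?_⟩
      set M := ∑ q ∈ F, m q with hM
      set v := ∑ q ∈ F, a q with hv
      have hnorm : ‖v‖ ^ 2 =
          ∑ q ∈ F, ∑ r ∈ F, μ.real (arcs q (c q) (ψ q) ∩ arcs r (c r) (ψ r)) := by
        have h1 : inner ℂ v v = ((‖v‖ : ℂ)) ^ 2 := inner_self_eq_norm_sq_to_K v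
        have h2 : inner ℂ v v =
            ((∑ q ∈ F, ∑ r ∈ F, μ.real (arcs q (c q) (ψ q) ∩ arcs r (c r) (ψ r)) : ℝ) : ℂ) := by
          rw [hv, sum_inner]
          push_cast
          apply Finset.sum_congr rfl
          intro q _
          rw [inner_sum]
          apply Finset.sum_congr rfl
          intro r _
          rw [ha, L2.inner_indicatorConstLp_one_indicatorConstLp_one]
          rfl
        rw [h1] at h2
        exact_mod_cast h2
      have hsm := second_moment F
        (fun q r => μ.real (arcs q (c q) (ψ q) ∩ arcs r (c r) (ψ r))) m (fun q => 0 < ψ q) C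
        (fun q => measureReal_nonneg) (fun q r => by rw [Set.inter_comm])
        (fun q _ => by simp [hm]) ?_ ?_ ?_ hFpos hCg
      · have h3 : ‖v‖ ^ 2 ≤ (2 * M) ^ 2 := by
          rw [hnorm]
          refine le_trans hsm ?_
          nlinarith [mul_nonneg (by linarith : (0:ℝ) ≤ M - 2 * C) (by linarith : (0:ℝ) ≤ M),
            mul_nonneg (by linarith : (0:ℝ) ≤ M - 1) (by linarith : (0:ℝ) ≤ M)]
        exact abs_le_of_sq_le_sq' h3 (by linarith) |>.2
      · intro q hq r hr hqr
        have := overlap_real q r (hFpos q hq) (hFpos r hr) (c q) (c r) (ψ q) (ψ r) (h0 q)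
        rw [hvol] at this
        rw [hmq q (hFpos q hq)]
        exact this
      · intro q _ r hq
        have : ψ q = 0 := le_antisymm (not_lt.mp hq) (h0 q)
        simp [this, arcs_empty]
      · intro r _ hr
        have : ψ r = 0 := le_antisymm (not_lt.mp hr) (h0 r)
        simp [hm, this, arcs_empty]
  have h5 : fourierCoeff (w : UnitAddCircle → ℂ) 0 = (μ.real G : ℂ) := by
    unfold fourierCoeff
    simp only [neg_zero, fourier_zero, one_smul]
    rw [hw, integral_indicatorConstLp]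
    simp [hμ]
  rw [h5] at hcore
  have h6 : μ.real G = 0 := by exact_mod_cast hcore
  rw [measureReal_def, ENNReal.toReal_eq_zero_iff] at h6
  rcases h6 with h | h
  · exact h
  · exact absurd h (measure_ne_top μ G)

end Vale.Agent.Lib.P028
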