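import Mathlib
import Vale.Agent.Lib.P028.Basic
open MeasureTheory Set Filter

namespace Vale.Agent.Lib.P028

lemma exists_block (ψ g : ℕ → ℝ) (h0 : ∀ q, 0 ≤ ψ q) (hg1 : ∀ q, 1 ≤ g q)
    (hdiv : ¬ Summable (fun q => ψ q / (g q * (1 + Real.logb 2 (g q)) ^ 2))) (n0 : ℕ) :
    ∃ (F : Finset ℕ) (C : ℝ), (∀ q ∈ F, n0 < q) ∧ 1 ≤ C ∧ C ≤ ∑ q ∈ F, ψ q ∧
      ∀ r ∈ F, g r ≤ C := by
  classical
  by_contra hcon
  push Not at hcon
  apply hdiv
  set j : ℕ → ℕ := fun q => Nat.log 2 ⌊g q⌋₊ with hj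
  have hfl : ∀ q, ⌊g q⌋₊ ≠ 0 := by
    intro q
    have : 1 ≤ ⌊g q⌋₊ := Nat.le_floor (by exact_mod_cast hg1 q)
    omega
  have hlow : ∀ q, (2 : ℝ) ^ (j q) ≤ g q := by
    intro q
    have h1 : 2 ^ (j q) ≤ ⌊g q⌋₊ := Nat.pow_log_le_self 2 (hfl q)
    have h2 : ((⌊g q⌋₊ : ℕ) : ℝ) ≤ g q := Nat.floor_le (by linarith [hg1 q])
    calc (2 : ℝ) ^ (j q) = ((2 ^ (j q) : ℕ) : ℝ) := by push_cast; ring
      _ ≤ ((⌊g q⌋₊ : ℕ) : ℝ) := by exact_mod_cast h1
      _ ≤ g q := h2
  have hup : ∀ q, g q ≤ (2 : ℝ) ^ (j q + 1) := by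
    intro q
    have h1 : ⌊g q⌋₊ < 2 ^ (j q + 1) := Nat.lt_pow_succ_log_self (by norm_num) _
    have h2 : g q < ((⌊g q⌋₊ : ℕ) : ℝ) + 1 := Nat.lt_floor_add_one _
    have h3 : ((⌊g q⌋₊ : ℕ) : ℝ) + 1 ≤ ((2 ^ (j q + 1) : ℕ) : ℝ) := by exact_mod_cast h1
    calc g q ≤ ((⌊g q⌋₊ : ℕ) : ℝ) + 1 := h2.le
      _ ≤ ((2 ^ (j q + 1) : ℕ) : ℝ) := h3
      _ = (2 : ℝ) ^ (j q + 1) := by push_cast; ring
  have hlog : ∀ q, (j q : ℝ) ≤ Real.logb 2 (g q) := by
    intro q
    rw [Real.le_logb_iff_rpow_le (by norm_num) (by linarith [hg1 q]), Real.rpow_natCast]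
    exact hlow q
  set w : ℕ → ℝ := fun i => 1 / ((2 : ℝ) ^ i * (1 + (i : ℝ)) ^ 2) with hw
  have hfw : ∀ q, ψ q / (g q * (1 + Real.logb 2 (g q)) ^ 2) ≤ ψ q * w (j q) := by
    intro q
    rw [hw, mul_one_div]
    apply div_le_div_of_nonneg_left (h0 q) (by positivity)
    apply mul_le_mul (hlow q) _ (by positivity) (by linarith [hg1 q])
    apply pow_le_pow_left₀ (by positivity)
    linarith [hlog q]
  have hsq : Summable (fun i : ℕ => 1 / (1 + (i : ℝ)) ^ 2) := by
    have := (summable_nat_add_iff 1).mpr (Real.summable_one_div_nat_pow.mpr (one_lt_two))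
    refine this.congr ?_
    intro i; push_cast; ring_nf
  have hblock : ∀ (u : Finset ℕ) (i : ℕ), (∀ q ∈ u, n0 < q) →
      ∑ q ∈ u.filter (fun q => j q = i), ψ q ≤ (2 : ℝ) ^ (i + 1) := by
    intro u i hu
    by_contra hlt
    push Not at hlt
    obtain ⟨r, hr, hr2⟩ := hcon (u.filter (fun q => j q = i)) ((2 : ℝ) ^ (i + 1))
      (fun q hq => hu q (Finset.mem_filter.mp hq).1) (one_le_pow₀ (by norm_num)) hlt.le
    have := hup r
    rw [(Finset.mem_filter.mp hr).2] at this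
    linarith
  apply summable_of_sum_le (c := ∑ q ∈ Finset.range (n0 + 1),
      ψ q / (g q * (1 + Real.logb 2 (g q)) ^ 2) + 2 * ∑' i : ℕ, 1 / (1 + (i : ℝ)) ^ 2)
  · intro q
    have := hg1 q
    have h2 := hlog q
    apply div_nonneg (h0 q)
    positivity
  · intro u
    set f : ℕ → ℝ := fun q => ψ q / (g q * (1 + Real.logb 2 (g q)) ^ 2) with hf
    have hfnn : ∀ q, 0 ≤ f q := by
      intro q
      have := hg1 q
      apply div_nonneg (h0 q)
      positivity
    set u' := u.filter (fun q => n0 < q) with hu'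
    have hsplit : ∑ q ∈ u, f q ≤ ∑ q ∈ Finset.range (n0 + 1), f q + ∑ q ∈ u', f q := by
      rw [← Finset.sum_filter_add_sum_filter_not u (fun q => n0 < q), add_comm]
      apply add_le_add _ le_rfl
      apply Finset.sum_le_sum_of_subset_of_nonneg
      · intro q hq
        simp only [Finset.mem_filter, not_lt] at hq
        exact Finset.mem_range.mpr (by omega)
      · intro q _ _; exact hfnn q
    have h2 : ∑ q ∈ u', f q ≤ 2 * ∑' i : ℕ, 1 / (1 + (i : ℝ)) ^ 2 := by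
      calc ∑ q ∈ u', f q ≤ ∑ q ∈ u', ψ q * w (j q) := Finset.sum_le_sum (fun q _ => hfw q)
        _ = ∑ i ∈ u'.image j, ∑ q ∈ u'.filter (fun q => j q = i), ψ q * w (j q) := by
            rw [Finset.sum_fiberwise_of_maps_to (fun q hq => Finset.mem_image_of_mem j hq)]
        _ = ∑ i ∈ u'.image j, w i * ∑ q ∈ u'.filter (fun q => j q = i), ψ q := by
            apply Finset.sum_congr rfl
            intro i _
            rw [Finset.mul_sum]
            apply Finset.sum_congr rfl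
            intro q hq
            rw [(Finset.mem_filter.mp hq).2, mul_comm]
        _ ≤ ∑ i ∈ u'.image j, w i * (2 : ℝ) ^ (i + 1) := by
            apply Finset.sum_le_sum
            intro i _
            apply mul_le_mul_of_nonneg_left
            · exact hblock u' i (fun q hq => (Finset.mem_filter.mp hq).2)
            · rw [hw]; positivity
        _ = ∑ i ∈ u'.image j, 2 * (1 / (1 + (i : ℝ)) ^ 2) := by
            apply Finset.sum_congr rfl
            intro i _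
            rw [hw]; field_simp; ring
        _ = 2 * ∑ i ∈ u'.image j, (1 / (1 + (i : ℝ)) ^ 2) := by rw [Finset.mul_sum]
        _ ≤ 2 * ∑' i : ℕ, 1 / (1 + (i : ℝ)) ^ 2 := by
            apply mul_le_mul_of_nonneg_left _ (by norm_num)
            exact hsq.sum_le_tsum _ (fun i _ => by positivity)
    linarith

lemma ae_real_of_ae_circle {p : UnitAddCircle → Prop} (h : ∀ᵐ y : UnitAddCircle, p y) :
    ∀ᵐ x : ℝ, p (x : UnitAddCircle) := by
  have h1 : ∀ n : ℤ, ∀ᵐ x : ℝ ∂(volume.restrict (Ioc (n : ℝ) (n + 1))), p (x : UnitAddCircle) :=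
    fun n => (AddCircle.measurePreserving_mk 1 (n : ℝ)).quasiMeasurePreserving.ae h
  have h2 := (ae_restrict_iUnion_iff (fun n : ℤ => Ioc (n : ℝ) (n + 1)) _).mpr h1
  rwa [iUnion_Ioc_intCast, Measure.restrict_univ] at h2

theorem master (ψ g : ℕ → ℝ) (hψ : ∀ q, 0 ≤ ψ q) (hg1 : ∀ q, 1 ≤ g q)
    (hg : ∀ r, 0 < ψ r →
      ∑ q ∈ (Finset.Ioo 0 r).filter (fun q => 0 < ψ q), (Nat.gcd q r : ℝ) ≤ g r * r)
    (hdiv : ¬ Summable (fun q => ψ q / (g q * (1 + Real.logb 2 (g q)) ^ 2))) (γ : ℕ → ℝ) :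
    ∀ᵐ x : ℝ, {q : ℕ | 0 < q ∧ ∃ a : ℤ, |(q : ℝ) * x - a - γ q| < ψ q}.Infinite := by
  by_cases hbig : {q : ℕ | 1 / 2 < ψ q}.Infinite
  · refine Filter.Eventually.of_forall (fun x => ?_)
    have hbig' : ({q : ℕ | 1 / 2 < ψ q} \ {0}).Infinite := hbig.sdiff (Set.finite_singleton 0)
    refine hbig'.mono ?_
    rintro q ⟨hq, hq0⟩
    refine ⟨Nat.pos_of_ne_zero hq0, round ((q : ℝ) * x - γ q), ?_⟩
    have e2 : (q : ℝ) * x - (round ((q : ℝ) * x - γ q) : ℝ) - γ q =
        (q : ℝ) * x - γ q - (round ((q : ℝ) * x - γ q) : ℝ) := by ring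
    rw [e2]
    exact lt_of_le_of_lt (abs_sub_round _) hq
  set ψ' : ℕ → ℝ := fun q => min (ψ q) (1 / 2) with hψ'
  have hpos : ∀ q, 0 < ψ' q ↔ 0 < ψ q := by
    intro q; simp [hψ']
  have hev : ∀ᶠ q in atTop, ψ' q = ψ q := by
    rw [Set.not_infinite] at hbig
    have := hbig.eventually_cofinite_notMem
    rw [Nat.cofinite_eq_atTop] at this
    filter_upwards [this] with q hq
    exact min_eq_left (not_lt.mp hq)
  have hdiv' : ¬ Summable (fun q => ψ' q / (g q * (1 + Real.logb 2 (g q)) ^ 2)) := by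
    intro hs
    apply hdiv
    refine hs.congr_atTop ?_
    filter_upwards [hev] with q hq
    rw [hq]
  have hnull := circle_tail_null ψ' (fun q => (γ q : UnitAddCircle))
    (fun q => le_min (hψ q) (by norm_num)) (fun q => min_le_right _ _)
    (by
      intro n0
      obtain ⟨F, C, h1, h2, h3, h4⟩ := exists_block ψ' g
        (fun q => le_min (hψ q) (by norm_num)) hg1 hdiv' n0
      refine ⟨F, C, h1, h2, h3, ?_⟩
      intro r hr hr0
      simp only [hpos] at hr0 ⊢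
      refine le_trans (hg r hr0) ?_
      exact mul_le_mul_of_nonneg_right (h4 r hr) (by positivity))
  have hae : ∀ᵐ y : UnitAddCircle, ∀ N : ℕ,
      y ∈ ⋃ q ∈ Set.Ici N, arcs q (γ q : UnitAddCircle) (ψ' q) := by
    rw [ae_all_iff]
    intro N
    have := hnull N
    rw [← mem_ae_iff] at this
    exact this
  filter_upwards [ae_real_of_ae_circle hae] with x hx
  apply Set.infinite_of_forall_exists_gt
  intro N
  obtain ⟨q, hq, hxq⟩ := Set.mem_iUnion₂.mp (hx (N + 1))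
  have hqN : N + 1 ≤ q := hq
  refine ⟨q, ⟨by omega, round ((q : ℝ) * x - γ q), ?_⟩, by omega⟩
  simp only [arcs, mem_ofPred_eq] at hxq
  have e : q • (x : UnitAddCircle) - (γ q : UnitAddCircle) =
      (((q : ℝ) * x - γ q : ℝ) : UnitAddCircle) := by
    rw [AddCircle.coe_sub, ← nsmul_eq_mul, AddCircle.coe_nsmul]
  rw [e, UnitAddCircle.norm_eq] at hxq
  have e2 : (q : ℝ) * x - (round ((q : ℝ) * x - γ q) : ℝ) - γ q =
      (q : ℝ) * x - γ q - (round ((q : ℝ) * x - γ q) : ℝ) := by ring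
  rw [e2]
  exact lt_of_lt_of_le hxq (min_le_left _ _)

/-- Pillai-type bound: the gcd-sum of `r` is at most `r` times its number of divisors. -/
lemma gcd_sum_le (r : ℕ) (hr : 0 < r) :
    ∑ q ∈ Finset.Ioo 0 r, (Nat.gcd q r : ℝ) ≤ (r.divisors.card : ℝ) * r := by
  have h1 : ∑ q ∈ Finset.Ioo 0 r, Nat.gcd q r ≤ r.divisors.card * r := by
    calc ∑ q ∈ Finset.Ioo 0 r, Nat.gcd q r
        ≤ ∑ q ∈ Finset.Ioc 0 r, Nat.gcd q r :=
          Finset.sum_le_sum_of_subset (Finset.Ioo_subset_Ioc_self)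
      _ = ∑ d ∈ r.divisors, ∑ q ∈ (Finset.Ioc 0 r).filter (fun q => Nat.gcd q r = d),
            Nat.gcd q r := by
          rw [Finset.sum_fiberwise_of_maps_to]
          intro q _
          exact Nat.mem_divisors.mpr ⟨Nat.gcd_dvd_right q r, hr.ne'⟩
      _ ≤ ∑ d ∈ r.divisors, r := by
          apply Finset.sum_le_sum
          intro d hd
          have hdr : d ∣ r := Nat.dvd_of_mem_divisors hd
          calc ∑ q ∈ (Finset.Ioc 0 r).filter (fun q => Nat.gcd q r = d), Nat.gcd q r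
              = ∑ q ∈ (Finset.Ioc 0 r).filter (fun q => Nat.gcd q r = d), d :=
                Finset.sum_congr rfl (fun q hq => (Finset.mem_filter.mp hq).2)
            _ = ((Finset.Ioc 0 r).filter (fun q => Nat.gcd q r = d)).card * d := by
                rw [Finset.sum_const, smul_eq_mul]
            _ ≤ ((Finset.Ioc 0 r).filter (fun q => d ∣ q)).card * d := by
                apply Nat.mul_le_mul_right
                apply Finset.card_le_card
                intro q hq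
                simp only [Finset.mem_filter] at hq ⊢
                exact ⟨hq.1, hq.2 ▸ Nat.gcd_dvd_left q r⟩
            _ = (r / d) * d := by rw [Nat.Ioc_filter_dvd_card_eq_div]
            _ = r := Nat.div_mul_cancel hdr
      _ = r.divisors.card * r := by rw [Finset.sum_const, smul_eq_mul]
  exact_mod_cast h1

end Vale.Agent.Lib.P028
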