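import Mathlib
import Vale.Agent.Lib.P028.Basic
open MeasureTheory Set Filter

namespace Vale.Agent.Lib.P028

lemma norm_coe_le_abs (t : ℝ) : ‖(t : UnitAddCircle)‖ ≤ |t| := by
  rw [UnitAddCircle.norm_eq]
  have := round_le t 0
  simpa using this

/-- lifting lemma: if `p ∤ q` and `p x` lies in the arcs of level `q` with data `(p c, p δ)` then
some translate `x + k/p` lies in the arcs with data `(c, δ)`. -/
lemma exists_translate_mem (p q : ℕ) (hp : 0 < p) (hc : Nat.Coprime q p) (c x : UnitAddCircle)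
    (δ : ℝ) (h : p • x ∈ arcs q (p • c) (p * δ)) :
    ∃ k : ℕ, x + k • (((1 / p : ℝ)) : UnitAddCircle) ∈ arcs q c δ := by
  have hpR : (0 : ℝ) < p := by exact_mod_cast hp
  simp only [arcs, mem_ofPred_eq] at h ⊢
  obtain ⟨s, hs⟩ : ∃ s : ℝ, (s : UnitAddCircle) = q • x - c := QuotientAddGroup.mk_surjective _
  have e1 : q • p • x - p • c = ((p * s : ℝ) : UnitAddCircle) := by
    rw [← nsmul_eq_mul, AddCircle.coe_nsmul, hs, smul_sub, smul_comm]
  rw [e1, UnitAddCircle.norm_eq] at h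
  set n : ℤ := round ((p : ℝ) * s) with hn
  -- choose k with q k + n ≡ 0 mod p
  obtain ⟨k, hk⟩ : ∃ k : ℕ, (p : ℤ) ∣ (q : ℤ) * k + n := by
    have hcop : IsCoprime (q : ℤ) (p : ℤ) := Nat.isCoprime_iff_coprime.mpr hc
    obtain ⟨a, b, hab⟩ := hcop
    -- a q + b p = 1
    refine ⟨((-n * a) % p).toNat, ?_⟩
    have hnn : 0 ≤ (-n * a) % (p : ℤ) := Int.emod_nonneg _ (by exact_mod_cast hp.ne')
    rw [Int.toNat_of_nonneg hnn]
    have h1 : (p : ℤ) ∣ (-n * a) % p - (-n * a) :=
      Int.ModEq.dvd (Int.mod_modEq (-n * a) p).symm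
    obtain ⟨t, ht⟩ := h1
    refine ⟨q * t + n * b, ?_⟩
    have : (-n * a) % (p : ℤ) = -n * a + p * t := by linarith
    rw [this]
    linear_combination (-n) * hab
  obtain ⟨t, ht⟩ := hk
  refine ⟨k, ?_⟩
  have e2 : q • (x + k • (((1 / p : ℝ)) : UnitAddCircle)) - c =
      ((s - n / p : ℝ) : UnitAddCircle) := by
    have h3 : q • (x + k • (((1 / p : ℝ)) : UnitAddCircle)) - c =
        ((s + (q * k : ℝ) / p : ℝ) : UnitAddCircle) := by
      rw [AddCircle.coe_add, hs, smul_add, ← AddCircle.coe_nsmul, ← AddCircle.coe_nsmul]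
      have : (q • k • (1 / p : ℝ)) = (q * k : ℝ) / p := by
        simp only [nsmul_eq_mul]; ring
      rw [this]; abel
    rw [h3]
    have h4 : s + (q * k : ℝ) / p = (s - n / p) + (t : ℝ) := by
      have : ((q : ℝ) * k + n) = p * t := by exact_mod_cast ht
      field_simp
      linarith
    rw [h4, AddCircle.coe_add]
    have : ((t : ℝ) : UnitAddCircle) = 0 := by
      simp
    rw [this, add_zero]
  rw [e2]
  refine lt_of_le_of_lt (norm_coe_le_abs _) ?_
  have h5 : |(p : ℝ) * s - n| = p * |s - n / p| := by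
    rw [← abs_of_pos hpR, ← abs_mul, abs_of_pos hpR]
    congr 1; field_simp
  rw [h5] at h
  exact lt_of_mul_lt_mul_left h hpR.le

lemma step_ineq (p : ℕ) (hp : 0 < p) (U V1 V2 : Set UnitAddCircle)
    (hU : MeasurableSet U) (hV1 : MeasurableSet V1) (hV2 : MeasurableSet V2)
    (h1 : (fun x : UnitAddCircle => p • x) ⁻¹' V1 ⊆ U)
    (h2 : ∀ x : UnitAddCircle, p • x ∈ V2 → p • x ∉ V1 →
      ∃ k : ℕ, x + k • (((1 / p : ℝ)) : UnitAddCircle) ∈ U) :
    (1 - 1 / (p : ℝ)) * volume.real V1 + (1 / (p : ℝ)) * volume.real V2 ≤ volume.real U := by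
  have hpR : (0 : ℝ) < p := by exact_mod_cast hp
  set u : UnitAddCircle := ((1 / p : ℝ) : UnitAddCircle) with hu
  have hpu : p • u = 0 := by
    rw [hu, ← AddCircle.coe_nsmul, nsmul_eq_mul, mul_one_div_cancel hpR.ne']
    exact AddCircle.coe_period 1
  set π : UnitAddCircle → UnitAddCircle := fun x => p • x with hπ
  have hmp := mp_nsmul p hp
  set E1 := π ⁻¹' V1 with hE1
  set E2 := π ⁻¹' (V2 \ V1) with hE2
  have mE1 : MeasurableSet E1 := hmp.measurable hV1
  have mE2 : MeasurableSet E2 := hmp.measurable (hV2.diff hV1)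
  have vE1 : volume.real E1 = volume.real V1 := by
    rw [measureReal_def, measureReal_def, hmp.measure_preimage hV1.nullMeasurableSet]
  have vE2 : volume.real E2 = volume.real (V2 \ V1) := by
    rw [measureReal_def, measureReal_def, hmp.measure_preimage (hV2.diff hV1).nullMeasurableSet]
  have hdiff : volume.real V2 - volume.real V1 ≤ volume.real (V2 \ V1) :=
    le_measureReal_sdiff (measure_ne_top _ _)
  have hdisj : Disjoint E1 (U ∩ E2) := by
    rw [Set.disjoint_left]
    rintro x hx1 ⟨_, hx2⟩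
    exact hx2.2 hx1
  have hsub : E1 ∪ (U ∩ E2) ⊆ U := Set.union_subset h1 Set.inter_subset_left
  have hUge : volume.real E1 + volume.real (U ∩ E2) ≤ volume.real U := by
    rw [← measureReal_union hdisj (hU.inter mE2)]
    exact measureReal_mono hsub
  have hcover : E2 ⊆ ⋃ k ∈ Finset.range p, (fun x => x + k • u) ⁻¹' (U ∩ E2) := by
    intro x hx
    obtain ⟨k, hk⟩ := h2 x hx.1 hx.2
    have hkmod : (k % p) • u = k • u := by
      conv_rhs => rw [← Nat.div_add_mod k p, add_smul, mul_comm, mul_smul, hpu, smul_zero, zero_add]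
    refine Set.mem_biUnion (Finset.mem_coe.mpr (Finset.mem_range.mpr (Nat.mod_lt k hp))) ?_
    refine ⟨by rw [hkmod]; exact hk, ?_⟩
    show π (x + (k % p) • u) ∈ V2 \ V1
    have : π (x + (k % p) • u) = π x := by
      simp only [hπ, smul_add]
      rw [smul_comm, hpu, smul_zero, add_zero]
    rw [this]; exact hx
  have hE2le : volume.real E2 ≤ p * volume.real (U ∩ E2) := by
    calc volume.real E2 ≤ volume.real (⋃ k ∈ Finset.range p, (fun x => x + k • u) ⁻¹' (U ∩ E2)) :=
          measureReal_mono hcover (measure_ne_top _ _)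
      _ ≤ ∑ k ∈ Finset.range p, volume.real ((fun x => x + k • u) ⁻¹' (U ∩ E2)) :=
          measureReal_biUnion_finset_le _ _
      _ = ∑ k ∈ Finset.range p, volume.real (U ∩ E2) := by
          apply Finset.sum_congr rfl
          intro k _
          rw [measureReal_def, measureReal_def, measure_preimage_add_right]
      _ = p * volume.real (U ∩ E2) := by simp
  have h3 : (1 / (p : ℝ)) * volume.real E2 ≤ volume.real (U ∩ E2) := by
    rw [one_div, inv_mul_le_iff₀ hpR]; exact hE2le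
  have h4 : (1 / (p : ℝ)) * (volume.real V2 - volume.real V1) ≤ (1 / (p : ℝ)) * volume.real E2 := by
    rw [vE2]
    exact mul_le_mul_of_nonneg_left hdiff (by positivity)
  rw [vE1] at hUge
  nlinarith


lemma measurableSet_biUnion_arcs {ι : Type*} (s : Finset ι) (q : ι → ℕ) (c : ι → UnitAddCircle)
    (δ : ι → ℝ) : MeasurableSet (⋃ i ∈ s, arcs (q i) (c i) (δ i)) :=
  Finset.measurableSet_biUnion s (fun i _ => measurableSet_arcs _ _ _)

theorem rogers_union {ι : Type*} (L : ℕ) (hL : 0 < L) :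
    ∀ (s : Finset ι) (q : ι → ℕ) (c : ι → UnitAddCircle) (δ : ι → ℝ),
    (∀ i ∈ s, 0 < q i ∧ q i ∣ L ∧ 0 ≤ δ i ∧ δ i * (2 * L) ≤ q i) → Set.InjOn q s →
    ∑ i ∈ s, 2 * δ i * (Nat.totient (q i) : ℝ) / (q i : ℝ) ≤
      volume.real (⋃ i ∈ s, arcs (q i) (c i) (δ i)) := by
  classical
  induction L using Nat.strong_induction_on with
  | _ L ih =>
  intro s q c δ hs hinj
  rcases Nat.lt_or_ge 1 L with hL1 | hL1
  swap
  · -- L = 1
    have hLeq : L = 1 := by omega
    subst hLeq
    have hq1 : ∀ i ∈ s, q i = 1 := fun i hi => Nat.dvd_one.mp (hs i hi).2.1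
    rcases s.eq_empty_or_nonempty with h0 | ⟨i0, hi0⟩
    · subst h0; simp
    · have hsing : s = {i0} := by
        ext j
        simp only [Finset.mem_singleton]
        constructor
        · intro hj
          exact hinj hj hi0 (by rw [hq1 j hj, hq1 i0 hi0])
        · rintro rfl; exact hi0
      rw [hsing]
      simp only [Finset.sum_singleton, Finset.mem_singleton, iUnion_iUnion_eq_left]
      obtain ⟨_, _, h3, h4⟩ := hs i0 hi0
      rw [hq1 i0 hi0] at h4 ⊢
      rw [real_arcs 1 one_pos _ _ h3 (by push_cast at h4; linarith)]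
      simp
  -- L > 1
  set p := L.minFac with hp
  have hpp : p.Prime := Nat.minFac_prime (by omega)
  have hppos : 0 < p := hpp.pos
  have hpR : (0 : ℝ) < p := by exact_mod_cast hppos
  obtain ⟨L', hL'⟩ : p ∣ L := Nat.minFac_dvd L
  have hL'pos : 0 < L' := by
    rcases Nat.eq_zero_or_pos L' with h | h
    · rw [h] at hL'; omega
    · exact h
  have hL'lt : L' < L := by
    rw [hL']; exact lt_mul_of_one_lt_left hL'pos hpp.one_lt
  have hLR : (L : ℝ) = p * L' := by rw [hL']; push_cast; ring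
  set s1 := s.filter (fun i => p ∣ q i) with hs1
  set s0 := s.filter (fun i => ¬ p ∣ q i) with hs0
  set s2 := s.filter (fun i => p * p ∣ q i) with hs2
  -- first family
  have IH1 := ih L' hL'lt hL'pos s1 (fun i => q i / p) c δ (by
    intro i hi
    obtain ⟨hi, hpi⟩ := Finset.mem_filter.mp hi
    obtain ⟨h1, h2, h3, h4⟩ := hs i hi
    obtain ⟨m, hm⟩ := hpi
    have hmpos : 0 < m := by
      rcases Nat.eq_zero_or_pos m with h | h
      · rw [h] at hm; omega
      · exact h
    have e : q i / p = m := by rw [hm]; exact Nat.mul_div_cancel_left _ hppos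
    simp only [e]
    refine ⟨hmpos, ?_, h3, ?_⟩
    · rw [hm, hL'] at h2
      exact Nat.dvd_of_mul_dvd_mul_left hppos h2
    · have : (q i : ℝ) = p * m := by rw [hm]; push_cast; ring
      rw [this, hLR] at h4
      have h5 : p * (δ i * (2 * (L' : ℝ))) ≤ p * m := by linarith
      exact le_of_mul_le_mul_left h5 hpR) (by
    intro i hi j hj hij
    obtain ⟨hi, hpi⟩ := Finset.mem_filter.mp (Finset.mem_coe.mp hi)
    obtain ⟨hj, hpj⟩ := Finset.mem_filter.mp (Finset.mem_coe.mp hj)
    apply hinj hi hj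
    have h1 := Nat.div_mul_cancel hpi
    have h2 := Nat.div_mul_cancel hpj
    simp only at hij
    rw [← h1, ← h2, hij])
  -- second family
  set q' : ι → ℕ := fun i => if p ∣ q i then q i / p else q i with hq'
  set c' : ι → UnitAddCircle := fun i => if p ∣ q i then c i else p • c i with hc'
  set δ' : ι → ℝ := fun i => if p ∣ q i then δ i else p * δ i with hδ'
  have IH2 := ih L' hL'lt hL'pos (s0 ∪ s2) q' c' δ' (by
    intro i hi
    rcases Finset.mem_union.mp hi with hi | hi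
    · obtain ⟨hi, hpi⟩ := Finset.mem_filter.mp hi
      obtain ⟨h1, h2, h3, h4⟩ := hs i hi
      simp only [hq', hδ', if_neg hpi]
      refine ⟨h1, ?_, by positivity, ?_⟩
      · rw [hL'] at h2
        have hcop : Nat.Coprime (q i) p := ((Nat.Prime.coprime_iff_not_dvd hpp).mpr hpi).symm
        exact hcop.dvd_of_dvd_mul_left h2
      · rw [hLR] at h4; linarith
    · obtain ⟨hi, hppi⟩ := Finset.mem_filter.mp hi
      have hpi : p ∣ q i := dvd_trans (dvd_mul_right p p) hppi
      obtain ⟨h1, h2, h3, h4⟩ := hs i hi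
      obtain ⟨m, hm⟩ := hpi
      have hpi : p ∣ q i := ⟨m, hm⟩
      have hmpos : 0 < m := by
        rcases Nat.eq_zero_or_pos m with h | h
        · rw [h] at hm; omega
        · exact h
      have e : q i / p = m := by rw [hm]; exact Nat.mul_div_cancel_left _ hppos
      simp only [hq', hδ', if_pos hpi, e]
      refine ⟨hmpos, ?_, h3, ?_⟩
      · rw [hm, hL'] at h2
        exact Nat.dvd_of_mul_dvd_mul_left hppos h2
      · have : (q i : ℝ) = p * m := by rw [hm]; push_cast; ring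
        rw [this, hLR] at h4
        have h5 : p * (δ i * (2 * (L' : ℝ))) ≤ p * m := by linarith
        exact le_of_mul_le_mul_left h5 hpR) (by
    intro i hi j hj hij
    have key : ∀ i ∈ s0 ∪ s2, i ∈ s ∧ ((¬ p ∣ q i ∧ q' i = q i) ∨
        (p ∣ q i ∧ p ∣ q' i ∧ q' i * p = q i)) := by
      intro i hi
      rcases Finset.mem_union.mp hi with hi | hi
      · obtain ⟨hi, hpi⟩ := Finset.mem_filter.mp hi
        exact ⟨hi, Or.inl ⟨hpi, by simp only [hq', if_neg hpi]⟩⟩
      · obtain ⟨hi, hppi⟩ := Finset.mem_filter.mp hi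
        have hpi : p ∣ q i := dvd_trans (dvd_mul_right p p) hppi
        refine ⟨hi, Or.inr ⟨hpi, ?_, ?_⟩⟩
        · simp only [hq', if_pos hpi]
          exact Nat.dvd_div_of_mul_dvd hppi
        · simp only [hq', if_pos hpi]
          exact Nat.div_mul_cancel hpi
    obtain ⟨hi', hci⟩ := key i (Finset.mem_coe.mp hi)
    obtain ⟨hj', hcj⟩ := key j (Finset.mem_coe.mp hj)
    apply hinj hi' hj'
    rcases hci with ⟨a1, a2⟩ | ⟨a1, a2, a3⟩ <;> rcases hcj with ⟨b1, b2⟩ | ⟨b1, b2, b3⟩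
    · rw [← a2, ← b2, hij]
    · exfalso; apply a1; rw [← a2, hij]; exact b2
    · exfalso; apply b1; rw [← b2, ← hij]; exact a2
    · rw [← a3, ← b3, hij])
  set U := ⋃ i ∈ s, arcs (q i) (c i) (δ i) with hU
  set V1 := ⋃ i ∈ s1, arcs (q i / p) (c i) (δ i) with hV1
  set V2 := ⋃ i ∈ s0 ∪ s2, arcs (q' i) (c' i) (δ' i) with hV2
  have hstep := step_ineq p hppos U V1 V2 (measurableSet_biUnion_arcs _ _ _ _)
    (measurableSet_biUnion_arcs _ _ _ _) (measurableSet_biUnion_arcs _ _ _ _) (by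
    intro x hx
    obtain ⟨i, hi, hxi⟩ := Set.mem_iUnion₂.mp hx
    obtain ⟨hi, hpi⟩ := Finset.mem_filter.mp hi
    refine Set.mem_biUnion (Finset.mem_coe.mpr hi) ?_
    have : q i = p * (q i / p) := (Nat.mul_div_cancel' hpi).symm
    rw [this, arcs_mul]
    exact hxi) (by
    intro x hx2 hx1
    obtain ⟨i, hi, hxi⟩ := Set.mem_iUnion₂.mp hx2
    rcases Finset.mem_union.mp hi with hi | hi
    · obtain ⟨hi, hpi⟩ := Finset.mem_filter.mp hi
      simp only [hq', hc', hδ', if_neg hpi] at hxi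
      have hcop : Nat.Coprime (q i) p := ((Nat.Prime.coprime_iff_not_dvd hpp).mpr hpi).symm
      obtain ⟨k, hk⟩ := exists_translate_mem p (q i) hppos hcop (c i) x (δ i) hxi
      exact ⟨k, Set.mem_biUnion (Finset.mem_coe.mpr hi) hk⟩
    · exfalso
      obtain ⟨hi, hppi⟩ := Finset.mem_filter.mp hi
      have hpi : p ∣ q i := dvd_trans (dvd_mul_right p p) hppi
      simp only [hq', hc', hδ', if_pos hpi] at hxi
      apply hx1
      exact Set.mem_biUnion (Finset.mem_coe.mpr (Finset.mem_filter.mpr ⟨hi, hpi⟩)) hxi)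
  refine le_trans ?_ hstep
  -- arithmetic
  set f : ι → ℝ := fun i => 2 * δ i * (Nat.totient (q i) : ℝ) / (q i : ℝ) with hf
  set F1 : ι → ℝ := fun i => 2 * δ i * (Nat.totient (q i / p) : ℝ) / ((q i / p : ℕ) : ℝ) with hF1
  have hsplit : ∑ i ∈ s, f i = ∑ i ∈ s1, f i + ∑ i ∈ s0, f i :=
    (Finset.sum_filter_add_sum_filter_not s (fun i => p ∣ q i) f).symm
  have hs1f : ∀ i ∈ s1, f i = (1 - 1 / (p : ℝ)) * F1 i +
      (if p * p ∣ q i then (1 / (p : ℝ)) * F1 i else 0) := by
    intro i hi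
    obtain ⟨hi, hpi⟩ := Finset.mem_filter.mp hi
    obtain ⟨h1, _, _, _⟩ := hs i hi
    obtain ⟨m, hm⟩ := hpi
    have hmpos : 0 < m := by
      rcases Nat.eq_zero_or_pos m with h | h
      · rw [h] at hm; omega
      · exact h
    have hmR : (0 : ℝ) < m := by exact_mod_cast hmpos
    have e : q i / p = m := by rw [hm]; exact Nat.mul_div_cancel_left _ hppos
    simp only [hf, hF1, e]
    rw [hm]
    by_cases hpm : p ∣ m
    · rw [if_pos (Nat.mul_dvd_mul_left p hpm), Nat.totient_mul_of_prime_of_dvd hpp hpm]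
      push_cast; field_simp; ring
    · rw [if_neg (fun h => hpm (Nat.dvd_of_mul_dvd_mul_left hppos h)),
        Nat.totient_mul_of_prime_of_not_dvd hpp hpm]
      have : ((p - 1 : ℕ) : ℝ) = (p : ℝ) - 1 := by
        rw [Nat.cast_sub hpp.one_le]; simp
      push_cast; rw [this]; field_simp; ring
  have hs2eq : s1.filter (fun i => p * p ∣ q i) = s2 := by
    ext i
    simp only [hs1, hs2, Finset.mem_filter]
    constructor
    · rintro ⟨⟨a, _⟩, b⟩; exact ⟨a, b⟩
    · rintro ⟨a, b⟩; exact ⟨⟨a, dvd_trans (dvd_mul_right p p) b⟩, b⟩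
  have hsum1 : ∑ i ∈ s1, f i = (1 - 1 / (p : ℝ)) * ∑ i ∈ s1, F1 i +
      (1 / (p : ℝ)) * ∑ i ∈ s2, F1 i := by
    rw [Finset.sum_congr rfl hs1f, Finset.sum_add_distrib, ← Finset.mul_sum, ← Finset.sum_filter,
      hs2eq, ← Finset.mul_sum]
  have hdisj : Disjoint s0 s2 := by
    rw [Finset.disjoint_left]
    intro i h0 h2
    exact (Finset.mem_filter.mp h0).2 (dvd_trans (dvd_mul_right p p) (Finset.mem_filter.mp h2).2)
  have hsum2 : ∑ i ∈ s0 ∪ s2, 2 * δ' i * (Nat.totient (q' i) : ℝ) / (q' i : ℝ) =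
      p * ∑ i ∈ s0, f i + ∑ i ∈ s2, F1 i := by
    rw [Finset.sum_union hdisj, Finset.mul_sum]
    congr 1
    · apply Finset.sum_congr rfl
      intro i hi
      have hpi := (Finset.mem_filter.mp hi).2
      simp only [hq', hδ', if_neg hpi, hf]; ring
    · apply Finset.sum_congr rfl
      intro i hi
      have hpi : p ∣ q i := dvd_trans (dvd_mul_right p p) (Finset.mem_filter.mp hi).2
      simp only [hq', hδ', if_pos hpi, hF1]
  rw [hsum2] at IH2
  have h1p : 0 ≤ 1 - 1 / (p : ℝ) := by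
    have : 1 / (p : ℝ) ≤ 1 := by
      rw [div_le_one hpR]; exact_mod_cast hpp.one_le
    linarith
  have hA := mul_le_mul_of_nonneg_left IH1 h1p
  have hB := mul_le_mul_of_nonneg_left IH2 (by positivity : (0 : ℝ) ≤ 1 / (p : ℝ))
  have hC : (1 / (p : ℝ)) * (p * ∑ i ∈ s0, f i + ∑ i ∈ s2, F1 i) =
      ∑ i ∈ s0, f i + (1 / (p : ℝ)) * ∑ i ∈ s2, F1 i := by
    field_simp
  rw [hC] at hB
  rw [hsplit, hsum1]
  linarith

end Vale.Agent.Lib.P028
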